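import Mathlib

/-!
# A determinant evaluation

For a multiplicative exponential `E : ℚ → R` and a sign `s` (`s * s = 1`) we evaluate
`det (E |a i - b j| + s * E |a i + b j|)` for strictly dominant sequences `a`, `b`.
-/

namespace Vale.Agent.Lib.P182

open Matrix

variable {R : Type*} [CommRing R]

/-- The kernel `E |a - b| + s * E |a + b|`. -/
def ker (E : ℚ → R) (s : R) (a b : ℚ) : R := E |a - b| + s * E |a + b|

/-- The kernel matrix. -/
def kmat (E : ℚ → R) (s : R) {n : ℕ} (a b : Fin n → ℚ) : Matrix (Fin n) (Fin n) R :=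
  Matrix.of fun i j => ker E s (a i) (b j)

/-- strictly dominant sequences: `a i > |a j|` for `i < j`. -/
def SDom {n : ℕ} (a : Fin n → ℚ) : Prop := ∀ i j : Fin n, i < j → |a j| < a i

/-- `1 - E (2 L)` if `L > 0`, else `0`. -/
def pos (E : ℚ → R) (L : ℚ) : R := if 0 < L then 1 - E (2 * L) else 0

theorem ker_comm (E : ℚ → R) (s : R) (a b : ℚ) : ker E s a b = ker E s b a := by
  unfold ker
  rw [abs_sub_comm, add_comm a b]

theorem kmat_transpose (E : ℚ → R) (s : R) {n : ℕ} (a b : Fin n → ℚ) :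
    (kmat E s a b)ᵀ = kmat E s b a := by
  ext i j
  simp [kmat, ker_comm E s (a j) (b i)]

theorem ker_neg_left (E : ℚ → R) (s : R) (hs : s * s = 1) (a b : ℚ) :
    ker E s (-a) b = s * ker E s a b := by
  unfold ker
  have h1 : |-a - b| = |a + b| := by rw [← abs_neg]; congr 1; ring
  have h2 : |-a + b| = |a - b| := by rw [← abs_neg]; congr 1; ring
  rw [h1, h2, mul_add, ← mul_assoc, hs]
  ring

theorem det_kmat_eq_zero_of_abs_eq (E : ℚ → R) (s : R) (hs : s * s = 1) {n : ℕ}
    (a b : Fin n → ℚ) {i j : Fin n} (hij : i ≠ j) (h : |a i| = |a j|) :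
    det (kmat E s a b) = 0 := by
  rcases abs_eq_abs.mp h with h | h
  · apply Matrix.det_zero_of_row_eq hij
    ext k
    simp [kmat, h]
  · have : kmat E s a b = (kmat E s a b).updateRow i (s • (kmat E s a b) j) := by
      ext k l
      by_cases hk : k = i
      · subst hk
        simp [kmat, h, ker_neg_left E s hs]
      · simp [Matrix.updateRow_ne hk]
    rw [this, Matrix.det_updateRow_smul]
    rw [Matrix.det_zero_of_row_eq hij (M := (kmat E s a b).updateRow i ((kmat E s a b) j))]
    · simp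
    · rw [Matrix.updateRow_self, Matrix.updateRow_ne hij.symm]

theorem ker_scale (E : ℚ → R) (hE : ∀ x y, E (x + y) = E x * E y) (s : R) {m m' b : ℚ}
    (hb : |b| ≤ m) (hm : m ≤ m') : ker E s m' b = E (m' - m) * ker E s m b := by
  unfold ker
  have hb' := abs_le.mp hb
  have h1 : |m' - b| = (m' - m) + |m - b| := by
    rw [abs_of_nonneg (by linarith), abs_of_nonneg (by linarith)]; ring
  have h2 : |m' + b| = (m' - m) + |m + b| := by
    rw [abs_of_nonneg (by linarith), abs_of_nonneg (by linarith)]; ring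
  rw [h1, h2, hE, hE]
  ring

theorem det_kmat_scale_row (E : ℚ → R) (hE : ∀ x y, E (x + y) = E x * E y) (s : R) {n : ℕ}
    (m m' : ℚ) (a' : Fin n → ℚ) (b : Fin (n + 1) → ℚ) (hb : ∀ j, |b j| ≤ m) (hm : m ≤ m') :
    det (kmat E s (Fin.cons m' a' : Fin (n + 1) → ℚ) b)
      = E (m' - m) * det (kmat E s (Fin.cons m a' : Fin (n + 1) → ℚ) b) := by
  have : kmat E s (Fin.cons m' a' : Fin (n + 1) → ℚ) b
      = (kmat E s (Fin.cons m a' : Fin (n + 1) → ℚ) b).updateRow 0
          (E (m' - m) • (kmat E s (Fin.cons m a' : Fin (n + 1) → ℚ) b) 0) := by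
    ext k l
    refine Fin.cases ?_ (fun k => ?_) k
    · simp [kmat, ker_scale E hE s (hb l) hm]
    · simp [kmat]
  rw [this, Matrix.det_updateRow_smul, Matrix.updateRow_eq_self]

/-- Laplace expansion along a first row equal to the first basis vector. -/
theorem det_updateRow_zero_single {n : ℕ} (A : Matrix (Fin (n + 1)) (Fin (n + 1)) R) :
    det (A.updateRow 0 (Pi.single 0 1)) = det (A.submatrix Fin.succ Fin.succ) := by
  rw [Matrix.det_succ_row_zero, Finset.sum_eq_single 0]
  · simp only [Fin.val_zero, pow_zero, Matrix.updateRow_self, Pi.single_eq_same, mul_one, one_mul,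
      Fin.succAbove_zero]
    congr 1
  · intro j _ hj
    simp [Matrix.updateRow_self, Pi.single_eq_of_ne hj]
  · simp

theorem det_kmat_diag (E : ℚ → R) (hE0 : E 0 = 1) (hE : ∀ x y, E (x + y) = E x * E y) (s : R)
    (hs : s * s = 1) {n : ℕ} (m M : ℚ) (a' b' : Fin (n + 1) → ℚ)
    (hM : M = max |a' 0| |b' 0|) (ha : ∀ i, |a' i| ≤ M) (hb : ∀ i, |b' i| ≤ M) (hm : M ≤ m) :
    det (kmat E s (Fin.cons m a' : Fin (n + 2) → ℚ) (Fin.cons m b' : Fin (n + 2) → ℚ))
      = (1 - E (2 * (m - M))) * det (kmat E s a' b') := by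
  have hM0 : 0 ≤ M := le_trans (abs_nonneg _) (ha 0)
  -- the matrix, as a function of the corner parameter
  set A : ℚ → Matrix (Fin (n + 2)) (Fin (n + 2)) R := fun t =>
    kmat E s (Fin.cons t a' : Fin (n + 2) → ℚ) (Fin.cons t b' : Fin (n + 2) → ℚ) with hA
  set r : ℚ → Fin (n + 2) → R := fun t j => A t 0 j - (Pi.single 0 1 : Fin (n + 2) → R) j with hr
  have hsplit : ∀ t, det (A t) = det (kmat E s a' b') + det ((A t).updateRow 0 (r t)) := by
    intro t
    have h1 : A t = (A t).updateRow 0 (Pi.single 0 1 + r t) := by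
      have : (Pi.single 0 1 + r t : Fin (n + 2) → R) = A t 0 := by
        ext j; simp [hr]
      rw [this, Matrix.updateRow_eq_self]
    conv_lhs => rw [h1]
    rw [Matrix.det_updateRow_add, det_updateRow_zero_single]
    congr 2
  have hscale : det ((A m).updateRow 0 (r m))
      = E (m - M) * (E (m - M) * det ((A M).updateRow 0 (r M))) := by
    set v : Fin (n + 2) → R := Fin.cons (E (m - M)) (fun _ => 1) with hv
    have hprod : ∏ i, v i = E (m - M) := by
      rw [Fin.prod_univ_succ]; simp [hv]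
    have : (A m).updateRow 0 (r m)
        = Matrix.of fun i j => v i * (Matrix.of fun i j => v j * ((A M).updateRow 0 (r M)) i j) i j := by
      ext i j
      refine Fin.cases ?_ (fun i => ?_) i
      · refine Fin.cases ?_ (fun j => ?_) j
        · simp only [Matrix.updateRow_self, Matrix.of_apply, hr, hA, hv, kmat, ker, Fin.cons_zero,
            Pi.single_eq_same, sub_self, abs_zero, hE0]
          have h1 : |m + m| = (m - M) + ((m - M) + |M + M|) := by
            rw [abs_of_nonneg (by linarith), abs_of_nonneg (by linarith)]; ring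
          rw [h1, hE, hE]
          ring
        · simp only [Matrix.updateRow_self, Matrix.of_apply, hr, hA, hv, kmat, Fin.cons_zero,
            Fin.cons_succ, Pi.single_eq_of_ne (Fin.succ_ne_zero j), sub_zero, one_mul]
          exact ker_scale E hE s (hb j) hm
      · refine Fin.cases ?_ (fun j => ?_) j
        · simp only [Matrix.updateRow_ne (Fin.succ_ne_zero i), Matrix.of_apply, hA, hv, kmat,
            Fin.cons_zero, Fin.cons_succ, one_mul]
          rw [ker_comm, ker_scale E hE s (ha i) hm, ker_comm E s M]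
        · simp only [Matrix.updateRow_ne (Fin.succ_ne_zero i), Matrix.of_apply, hA, hv, kmat,
            Fin.cons_succ, one_mul]
    rw [this, Matrix.det_mul_column, Matrix.det_mul_row, hprod]
  have hzero : det (A M) = 0 := by
    rcases le_total |b' 0| |a' 0| with h | h
    · have hMa : M = |a' 0| := by rw [hM, max_eq_left h]
      apply det_kmat_eq_zero_of_abs_eq E s hs _ _ (i := 0) (j := 1) (by simp)
      have : (1 : Fin (n + 2)) = Fin.succ 0 := rfl
      rw [this, Fin.cons_zero, Fin.cons_succ, abs_of_nonneg hM0, hMa]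
    · have hMb : M = |b' 0| := by rw [hM, max_eq_right h]
      rw [← Matrix.det_transpose, hA, kmat_transpose]
      apply det_kmat_eq_zero_of_abs_eq E s hs _ _ (i := 0) (j := 1) (by simp)
      have : (1 : Fin (n + 2)) = Fin.succ 0 := rfl
      rw [this, Fin.cons_zero, Fin.cons_succ, abs_of_nonneg hM0, hMb]
  have hY : det ((A M).updateRow 0 (r M)) = - det (kmat E s a' b') := by
    have := hsplit M
    rw [hzero] at this
    linear_combination -this
  have h2 : E (2 * (m - M)) = E (m - M) * E (m - M) := by rw [← hE]; congr 1; ring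
  have := hsplit m
  rw [hscale, hY] at this
  rw [show kmat E s (Fin.cons m a' : Fin (n + 2) → ℚ) (Fin.cons m b' : Fin (n + 2) → ℚ) = A m from rfl,
    this, h2]
  ring

theorem SDom.tail {n : ℕ} {a : Fin (n + 1) → ℚ} (ha : SDom a) : SDom (Fin.tail a) := by
  intro i j hij
  exact ha i.succ j.succ (Fin.succ_lt_succ_iff.mpr hij)

theorem SDom.abs_le_zero {n : ℕ} {a : Fin (n + 1) → ℚ} (ha : SDom a) (i : Fin (n + 1)) :
    |a i| ≤ |a 0| := by
  rcases Fin.eq_zero_or_eq_succ i with h | ⟨j, h⟩
  · rw [h]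
  · have := ha 0 i (by rw [h]; exact Fin.succ_pos j)
    exact le_trans this.le (le_abs_self _)

/-- one step of the evaluation, in the case `b0 ≤ a0`. -/
theorem det_kmat_step_aux (E : ℚ → R) (hE0 : E 0 = 1) (hE : ∀ x y, E (x + y) = E x * E y) (s : R)
    (hs : s * s = 1) {n : ℕ} (a0 b0 : ℚ) (a' b' : Fin (n + 1) → ℚ)
    (ha' : ∀ i, |a' i| ≤ |a' 0|) (hb' : ∀ i, |b' i| ≤ |b' 0|)
    (ha0 : |a' 0| < a0) (hb0 : |b' 0| < b0) (hab : b0 ≤ a0) :
    det (kmat E s (Fin.cons a0 a' : Fin (n + 2) → ℚ) (Fin.cons b0 b' : Fin (n + 2) → ℚ))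
      = E |a0 - b0| * pos E (min a0 b0 - max |a' 0| |b' 0|) * det (kmat E s a' b') := by
  have hb0' : 0 ≤ b0 := le_trans (abs_nonneg _) hb0.le
  have hbb : ∀ j, |(Fin.cons b0 b' : Fin (n + 2) → ℚ) j| ≤ b0 := by
    intro j
    refine Fin.cases ?_ (fun j => ?_) j
    · simp [abs_of_nonneg hb0']
    · simpa using le_trans (hb' j) hb0.le
  rw [min_eq_right hab, abs_of_nonneg (by linarith)]
  by_cases hc : b0 ≤ |a' 0|
  · rw [det_kmat_scale_row E hE s |a' 0| a0 a' _ (fun j => le_trans (hbb j) hc) ha0.le]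
    rw [det_kmat_eq_zero_of_abs_eq E s hs _ _ (i := 0) (j := 1) (by simp)]
    · have : ¬ (0 < b0 - max |a' 0| |b' 0|) := by
        have := le_max_left |a' 0| |b' 0|
        linarith
      simp [pos, this]
    · have : (1 : Fin (n + 2)) = Fin.succ 0 := rfl
      rw [this, Fin.cons_zero, Fin.cons_succ, abs_abs]
  · rw [not_le] at hc
    rw [det_kmat_scale_row E hE s b0 a0 a' _ hbb hab]
    have hM : max |a' 0| |b' 0| < b0 := max_lt hc hb0
    rw [det_kmat_diag E hE0 hE s hs b0 (max |a' 0| |b' 0|) a' b' rfl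
      (fun i => le_trans (ha' i) (le_max_left _ _)) (fun i => le_trans (hb' i) (le_max_right _ _))
      hM.le]
    have : 0 < b0 - max |a' 0| |b' 0| := by linarith
    simp only [pos, this, if_true]
    ring

theorem det_kmat_step (E : ℚ → R) (hE0 : E 0 = 1) (hE : ∀ x y, E (x + y) = E x * E y) (s : R)
    (hs : s * s = 1) {n : ℕ} (a0 b0 : ℚ) (a' b' : Fin (n + 1) → ℚ)
    (ha' : ∀ i, |a' i| ≤ |a' 0|) (hb' : ∀ i, |b' i| ≤ |b' 0|)
    (ha0 : |a' 0| < a0) (hb0 : |b' 0| < b0) :
    det (kmat E s (Fin.cons a0 a' : Fin (n + 2) → ℚ) (Fin.cons b0 b' : Fin (n + 2) → ℚ))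
      = E |a0 - b0| * pos E (min a0 b0 - max |a' 0| |b' 0|) * det (kmat E s a' b') := by
  rcases le_total b0 a0 with h | h
  · exact det_kmat_step_aux E hE0 hE s hs a0 b0 a' b' ha' hb' ha0 hb0 h
  · rw [← Matrix.det_transpose, kmat_transpose,
      det_kmat_step_aux E hE0 hE s hs b0 a0 b' a' hb' ha' hb0 ha0 h,
      ← Matrix.det_transpose (kmat E s b' a'), kmat_transpose, abs_sub_comm, min_comm, max_comm]

/-- The determinant evaluation. -/
theorem det_kmat (E : ℚ → R) (hE0 : E 0 = 1) (hE : ∀ x y, E (x + y) = E x * E y) (s : R)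
    (hs : s * s = 1) : ∀ (n : ℕ) (a b : Fin (n + 1) → ℚ), SDom a → SDom b →
    det (kmat E s a b)
      = (∏ i : Fin n, (E |a i.castSucc - b i.castSucc|
            * pos E (min (a i.castSucc) (b i.castSucc) - max |a i.succ| |b i.succ|)))
          * ker E s (a (Fin.last n)) (b (Fin.last n)) := by
  intro n
  induction n with
  | zero =>
    intro a b _ _
    simp [kmat]
  | succ n ih =>
    intro a b ha hb
    have h := det_kmat_step E hE0 hE s hs (a 0) (b 0) (Fin.tail a) (Fin.tail b)
      (fun i => ha.tail.abs_le_zero i) (fun i => hb.tail.abs_le_zero i)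
      (ha 0 (Fin.succ 0) (Fin.succ_pos 0)) (hb 0 (Fin.succ 0) (Fin.succ_pos 0))
    rw [Fin.cons_self_tail, Fin.cons_self_tail, ih _ _ ha.tail hb.tail] at h
    rw [h, Fin.prod_univ_succ]
    simp only [Fin.tail, Fin.castSucc_zero, Fin.succ_last, Fin.succ_castSucc]
    ring

end Vale.Agent.Lib.P182
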