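import Vale.Agent.Lib.P182.Defs
import Vale.Agent.Lib.P182.Det

/-!
# Sums over the Weyl group of type `D_n` and alternating functions
-/

namespace Vale.Agent.Lib.P182

open Finset

variable {n : ℕ}

/-- Sign vectors with an even number of `-1`. -/
def evenSigns (n : ℕ) : Finset (Fin n → ℤˣ) := univ.filter (fun ε => ∏ i, ε i = 1)

theorem mem_evenSigns {ε : Fin n → ℤˣ} : ε ∈ evenSigns n ↔ ∏ i, ε i = 1 := by
  simp [evenSigns]

/-- Sum over the Weyl group. -/
def wsum {M : Type*} [AddCommMonoid M] (F : Equiv.Perm (Fin n) → (Fin n → ℤˣ) → M) : M :=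
  ∑ σ, ∑ ε ∈ evenSigns n, F σ ε

theorem alt_eq_wsum (x : Wt n) :
    alt x = wsum fun σ ε => AddMonoidAlgebra.single (act σ ε x) ((Equiv.Perm.sign σ : ℤˣ) : ℤ) :=
  rfl

theorem act_act (τ σ : Equiv.Perm (Fin n)) (δ ε : Fin n → ℤˣ) (x : Wt n) :
    act τ δ (act σ ε x) = act (σ * τ) (fun i => δ i * ε (τ i)) x := by
  ext i
  simp [act, mul_assoc]

theorem act_sub (τ : Equiv.Perm (Fin n)) (δ : Fin n → ℤˣ) (x y : Wt n) :
    act τ δ (x - y) = act τ δ x - act τ δ y := by
  ext i
  simp [act, mul_sub]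

theorem wsum_reindex {M : Type*} [AddCommMonoid M] (τ : Equiv.Perm (Fin n)) (δ : Fin n → ℤˣ)
    (hδ : ∏ i, δ i = 1) (F : Equiv.Perm (Fin n) → (Fin n → ℤˣ) → M) :
    wsum F = wsum (fun σ ε => F (σ * τ) (fun i => δ i * ε (τ i))) := by
  unfold wsum
  rw [← Equiv.sum_comp (Equiv.mulRight τ)]
  refine Finset.sum_congr rfl fun σ _ => ?_
  symm
  refine Finset.sum_nbij' (fun ε i => δ i * ε (τ i))
    (fun ε i => (δ (τ.symm i))⁻¹ * ε (τ.symm i)) ?_ ?_ ?_ ?_ ?_
  · intro ε hε
    rw [mem_evenSigns] at hε ⊢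
    rw [Finset.prod_mul_distrib, hδ, Equiv.prod_comp τ, hε, one_mul]
  · intro ε hε
    rw [mem_evenSigns] at hε ⊢
    rw [Finset.prod_mul_distrib, Equiv.prod_comp τ.symm (fun i => (δ i)⁻¹),
      Equiv.prod_comp τ.symm ε, Finset.prod_inv_distrib, hδ, hε]
    simp
  · intro ε _
    funext i
    simp only [Equiv.apply_symm_apply, inv_mul_cancel_left]
  · intro ε _
    funext i
    simp only [Equiv.symm_apply_apply, mul_inv_cancel_left]
  · intro ε _
    rfl

theorem coeff_alt_mul (β : Wt n) (f : CharRing n) (x : Wt n) :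
    (alt β * f).coeff x
      = wsum fun σ ε => ((Equiv.Perm.sign σ : ℤˣ) : ℤ) * f.coeff (x - act σ ε β) := by
  rw [alt_eq_wsum]
  unfold wsum
  rw [Finset.sum_mul, AddMonoidAlgebra.coeff_sum, Finsupp.finsetSum_apply]
  refine Finset.sum_congr rfl fun σ _ => ?_
  rw [Finset.sum_mul, AddMonoidAlgebra.coeff_sum, Finsupp.finsetSum_apply]
  refine Finset.sum_congr rfl fun ε _ => ?_
  rw [AddMonoidAlgebra.coeff_single_mul_apply, neg_add_eq_sub]

/-- A function on weights is alternating if it transforms by the sign under `W(D_n)`. -/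
def IsAlternating (F : Wt n → ℤ) : Prop :=
  ∀ (τ : Equiv.Perm (Fin n)) (δ : Fin n → ℤˣ), ∏ i, δ i = 1 → ∀ x,
    F (act τ δ x) = ((Equiv.Perm.sign τ : ℤˣ) : ℤ) * F x

theorem isAlternating_wsum (g : Wt n → ℤ)
    (hg : ∀ (τ : Equiv.Perm (Fin n)) (δ : Fin n → ℤˣ), ∏ i, δ i = 1 → ∀ x, g (act τ δ x) = g x)
    (β : Wt n) :
    IsAlternating fun x => wsum fun σ ε => ((Equiv.Perm.sign σ : ℤˣ) : ℤ) * g (x - act σ ε β) := by
  intro τ δ hδ x
  simp only
  rw [wsum_reindex τ δ hδ]
  unfold wsum
  rw [Finset.mul_sum]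
  refine Finset.sum_congr rfl fun σ _ => ?_
  rw [Finset.mul_sum]
  refine Finset.sum_congr rfl fun ε _ => ?_
  beta_reduce
  rw [← act_act, ← act_sub, hg τ δ hδ, Equiv.Perm.sign_mul]
  push_cast
  ring

theorem isAlternating_coeff_alt_mul (β : Wt n) (f : CharRing n)
    (hf : ∀ (τ : Equiv.Perm (Fin n)) (δ : Fin n → ℤˣ), ∏ i, δ i = 1 → ∀ x,
      f.coeff (act τ δ x) = f.coeff x) :
    IsAlternating fun x => (alt β * f).coeff x := by
  have := isAlternating_wsum (fun x => f.coeff x) hf β
  simpa only [coeff_alt_mul] using this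

/-- the sign vector which is `-1` at `i` and `j`. -/
def negPair (i j : Fin n) : Fin n → ℤˣ := fun k => if k = i ∨ k = j then -1 else 1

theorem prod_negPair {i j : Fin n} (hij : i ≠ j) : ∏ k, negPair i j k = 1 := by
  rw [Finset.prod_eq_mul i j hij]
  · simp [negPair]
  · intro c _ hc
    simp [negPair, hc.1, hc.2]
  · simp
  · simp

theorem sum_mul_sub_of_eq_off (θ y y' : Fin n → ℚ) {i j : Fin n} (hij : i ≠ j)
    (h : ∀ k, k ≠ i → k ≠ j → y' k = y k) :
    ∑ k, θ k * y' k - ∑ k, θ k * y k = θ i * (y' i - y i) + θ j * (y' j - y j) := by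
  rw [← Finset.sum_sub_distrib, Finset.sum_eq_add i j hij]
  · ring
  · intro c _ hc
    rw [h c hc.1 hc.2]; ring
  · simp
  · simp

theorem exists_dominant (x : Wt n) :
    ∃ (τ : Equiv.Perm (Fin n)) (δ : Fin n → ℤˣ), ∏ i, δ i = 1 ∧ IsDominant (act τ δ x) := by
  classical
  set θ : Fin n → ℚ := fun i => (n : ℚ) - (i : ℕ) with hθ
  set Φ : Equiv.Perm (Fin n) × (Fin n → ℤˣ) → ℚ := fun p => ∑ k, θ k * act p.1 p.2 x k with hΦ
  set S : Finset (Equiv.Perm (Fin n) × (Fin n → ℤˣ)) := univ ×ˢ evenSigns n with hS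
  have hSne : S.Nonempty := ⟨(1, fun _ => 1), by simp [hS, mem_evenSigns]⟩
  obtain ⟨p, hp, hmax⟩ := S.exists_max_image Φ hSne
  have hp2 : ∏ i, p.2 i = 1 := by
    have := (Finset.mem_product.mp hp).2
    exact mem_evenSigns.mp this
  refine ⟨p.1, p.2, hp2, ?_⟩
  intro i j hij
  by_contra hcon
  rw [not_le] at hcon
  have hne : i ≠ j := ne_of_lt hij
  have hθij : θ j < θ i := by
    simp only [hθ]
    have : ((i : ℕ) : ℚ) < ((j : ℕ) : ℚ) := by exact_mod_cast hij
    linarith
  have hθpos : ∀ k, 0 < θ k := by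
    intro k
    simp only [hθ]
    have : ((k : ℕ) : ℚ) < (n : ℚ) := by exact_mod_cast k.2
    linarith
  -- general principle: a reflected point is again in the orbit
  have horb : ∀ (τ : Equiv.Perm (Fin n)) (δ : Fin n → ℤˣ), ∏ k, δ k = 1 →
      ∑ k, θ k * act τ δ (act p.1 p.2 x) k ≤ ∑ k, θ k * act p.1 p.2 x k := by
    intro τ δ hδ
    have hmem : (p.1 * τ, fun k => δ k * p.2 (τ k)) ∈ S := by
      refine Finset.mem_product.mpr ⟨Finset.mem_univ _, mem_evenSigns.mpr ?_⟩
      rw [Finset.prod_mul_distrib, hδ, Equiv.prod_comp τ, hp2, one_mul]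
    have := hmax _ hmem
    simp only [hΦ] at this
    rw [act_act]
    exact this
  set y := act p.1 p.2 x with hy
  rcases lt_abs.mp hcon with h | h
  · have h1 := horb (Equiv.swap i j) (fun _ => 1) (by simp)
    have h2 := sum_mul_sub_of_eq_off θ y (act (Equiv.swap i j) (fun _ => 1) y) hne (by
      intro k hki hkj
      simp [act, Equiv.swap_apply_of_ne_of_ne hki hkj])
    have h3 : act (Equiv.swap i j) (fun _ => 1) y i = y j := by simp [act]
    have h4 : act (Equiv.swap i j) (fun _ => 1) y j = y i := by simp [act]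
    rw [h3, h4] at h2
    nlinarith
  · have h1 := horb (Equiv.swap i j) (negPair i j) (prod_negPair hne)
    have h2 := sum_mul_sub_of_eq_off θ y (act (Equiv.swap i j) (negPair i j) y) hne (by
      intro k hki hkj
      simp [act, negPair, hki, hkj, Equiv.swap_apply_of_ne_of_ne hki hkj])
    have h3 : act (Equiv.swap i j) (negPair i j) y i = - y j := by simp [act, negPair]
    have h4 : act (Equiv.swap i j) (negPair i j) y j = - y i := by simp [act, negPair]
    rw [h3, h4] at h2
    have := hθpos i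
    have := hθpos j
    nlinarith

theorem IsAlternating.eq_zero_of_wall {F : Wt n → ℤ} (hF : IsAlternating F) {y : Wt n}
    {i j : Fin n} (hij : i ≠ j) (h : |y j| = |y i|) : F y = 0 := by
  rcases abs_eq_abs.mp h with h | h
  · have h1 := hF (Equiv.swap i j) (fun _ => 1) (by simp) y
    have h2 : act (Equiv.swap i j) (fun _ => 1) y = y := by
      ext k
      by_cases hki : k = i
      · subst hki; simp [act, h]
      · by_cases hkj : k = j
        · subst hkj; simp [act, h]
        · simp [act, Equiv.swap_apply_of_ne_of_ne hki hkj]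
    rw [h2, Equiv.Perm.sign_swap hij] at h1
    simp at h1
    omega
  · have h1 := hF (Equiv.swap i j) (negPair i j) (prod_negPair hij) y
    have h2 : act (Equiv.swap i j) (negPair i j) y = y := by
      ext k
      by_cases hki : k = i
      · subst hki; simp [act, negPair, h]
      · by_cases hkj : k = j
        · subst hkj; simp [act, negPair, h]
        · simp [act, negPair, hki, hkj, Equiv.swap_apply_of_ne_of_ne hki hkj]
    rw [h2, Equiv.Perm.sign_swap hij] at h1
    simp at h1
    omega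

theorem IsAlternating.eq_zero {F : Wt n → ℤ} (hF : IsAlternating F)
    (h : ∀ y, SDom y → F y = 0) (x : Wt n) : F x = 0 := by
  obtain ⟨τ, δ, hδ, hdom⟩ := exists_dominant x
  have h1 := hF τ δ hδ x
  have h0 : F (act τ δ x) = 0 := by
    by_cases hs : SDom (act τ δ x)
    · exact h _ hs
    · unfold SDom at hs
      push Not at hs
      obtain ⟨i, j, hij, hle⟩ := hs
      have h2 := hdom i j hij
      have h3 : |act τ δ x j| = act τ δ x i := le_antisymm h2 hle
      have h4 : 0 ≤ act τ δ x i := h3 ▸ abs_nonneg _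
      exact hF.eq_zero_of_wall (ne_of_lt hij) (by rw [h3, abs_of_nonneg h4])
  rw [h0] at h1
  rcases Int.units_eq_one_or (Equiv.Perm.sign τ) with hs | hs
  · rw [hs] at h1; simpa using h1.symm
  · rw [hs] at h1; simpa using h1.symm

theorem IsAlternating.sub {F G : Wt n → ℤ} (hF : IsAlternating F) (hG : IsAlternating G) :
    IsAlternating fun x => F x - G x := by
  intro τ δ hδ x
  simp only
  rw [hF τ δ hδ, hG τ δ hδ]
  ring

theorem IsAlternating.ext {F G : Wt n → ℤ} (hF : IsAlternating F) (hG : IsAlternating G)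
    (h : ∀ y, SDom y → F y = G y) (x : Wt n) : F x = G x := by
  have := (hF.sub hG).eq_zero (fun y hy => by simp [h y hy]) x
  simpa [sub_eq_zero] using this

theorem SDom.strictAnti_abs {a : Wt n} (ha : SDom a) : StrictAnti fun i => |a i| := by
  intro i j hij
  exact lt_of_lt_of_le (ha i j hij) (le_abs_self _)

theorem abs_act (σ : Equiv.Perm (Fin n)) (ε : Fin n → ℤˣ) (x : Wt n) (i : Fin n) :
    |act σ ε x i| = |x (σ i)| := by
  unfold act
  rcases Int.units_eq_one_or (ε i) with h | h <;> simp [h]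

/-- Two strictly dominant points in one orbit coincide, and the stabiliser is trivial. -/
theorem eq_one_of_act_eq {x β : Wt n} (hx : SDom x) (hβ : SDom β)
    {σ : Equiv.Perm (Fin n)} {ε : Fin n → ℤˣ} (hε : ∏ i, ε i = 1) (h : act σ ε β = x) :
    σ = 1 ∧ ε = fun _ => 1 := by
  have hσ : StrictMono σ := by
    intro i j hij
    have h1 := hx.strictAnti_abs hij
    simp only [← h, abs_act] at h1
    exact hβ.strictAnti_abs.lt_iff_gt.mp h1
  have hσ1 : σ = 1 := by
    have : (σ : Fin n → Fin n) = id :=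
      (StrictMono.range_inj hσ strictMono_id).mp (by simp [σ.surjective.range_eq])
    ext i
    simp [this]
  subst hσ1
  refine ⟨rfl, ?_⟩
  have hpos : ∀ i j : Fin n, i < j → ε i = 1 := by
    intro i j hij
    have h1 : 0 < x i := lt_of_le_of_lt (abs_nonneg _) (hx i j hij)
    have h2 : 0 < β i := lt_of_le_of_lt (abs_nonneg _) (hβ i j hij)
    rcases Int.units_eq_one_or (ε i) with h3 | h3
    · exact h3
    · have : act 1 ε β i = - β i := by simp [act, h3]
      rw [h] at this
      linarith
  obtain _ | m := n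
  · funext i; exact i.elim0
  · have hl : ∀ i : Fin (m + 1), i ≠ Fin.last m → ε i = 1 := fun i hi =>
      hpos i (Fin.last m) (lt_of_le_of_ne (Fin.le_last i) hi)
    have : ∏ i, ε i = ε (Fin.last m) := Fintype.prod_eq_single _ hl
    funext i
    by_cases hi : i = Fin.last m
    · rw [hi, ← this, hε]
    · exact hl i hi

theorem act_one_one (x : Wt n) : act 1 (fun _ => 1) x = x := by
  ext i; simp [act]

theorem coeff_alt_of_sdom {x β : Wt n} (hx : SDom x) (hβ : SDom β) :
    (alt β).coeff x = if x = β then 1 else 0 := by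
  classical
  rw [alt_eq_wsum]
  unfold wsum
  rw [AddMonoidAlgebra.coeff_sum, Finsupp.finsetSum_apply]
  simp only [AddMonoidAlgebra.coeff_sum, Finsupp.finsetSum_apply, AddMonoidAlgebra.coeff_single,
    Finsupp.single_apply]
  by_cases hxb : x = β
  · subst hxb
    rw [Finset.sum_eq_single 1, Finset.sum_eq_single (fun _ => 1)]
    · simp [act_one_one]
    · intro ε hε hne
      rw [if_neg]
      intro h
      exact hne (eq_one_of_act_eq hx hx (mem_evenSigns.mp hε) h).2
    · intro h
      exact absurd (mem_evenSigns.mpr (by simp)) h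
    · intro σ _ hne
      refine Finset.sum_eq_zero fun ε hε => ?_
      rw [if_neg]
      intro h
      exact hne (eq_one_of_act_eq hx hx (mem_evenSigns.mp hε) h).1
    · simp
  · rw [if_neg hxb]
    refine Finset.sum_eq_zero fun σ _ => Finset.sum_eq_zero fun ε hε => ?_
    rw [if_neg]
    intro h
    obtain ⟨h1, h2⟩ := eq_one_of_act_eq hx hβ (mem_evenSigns.mp hε) h
    subst h1 h2
    rw [act_one_one] at h
    exact hxb h.symm

theorem isAlternating_coeff_alt (β : Wt n) : IsAlternating fun x => (alt β).coeff x := by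
  classical
  have := isAlternating_coeff_alt_mul β 1 (by
    intro τ δ _ x
    rw [AddMonoidAlgebra.one_def]
    simp only [AddMonoidAlgebra.coeff_single, Finsupp.single_apply]
    have : (0 = act τ δ x) ↔ (0 = x) := by
      constructor
      · intro h
        ext i
        have h1 := congrFun h (τ.symm i)
        simp only [act, Equiv.apply_symm_apply, Pi.zero_apply] at h1
        rcases Int.units_eq_one_or (δ (τ.symm i)) with h2 | h2 <;> simp [h2] at h1 <;>
          simp [← h1]
      · intro h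
        ext i
        simp [act, ← h]
    simp only [this])
  simpa using this

end Vale.Agent.Lib.P182
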