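import Vale.Agent.Lib.P182.Pieri

/-!
# Integrality bookkeeping and basic facts on `ρ`, `ω_1`
-/

namespace Vale.Agent.Lib.P182

open Finset Polynomial

variable {n : ℕ}

/-- all coordinates lie in `c + ℤ`. -/
def Cls (c : ℚ) (x : Wt n) : Prop := ∀ i, ∃ z : ℤ, x i = z + c

theorem Cls.sub_int {c : ℚ} {x y : Wt n} (hx : Cls c x) (hy : Cls c y) (i j : Fin n) :
    ∃ z : ℤ, x i - y j = z := by
  obtain ⟨a, ha⟩ := hx i
  obtain ⟨b, hb⟩ := hy j
  exact ⟨a - b, by rw [ha, hb]; push_cast; ring⟩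

theorem Cls.add_int {c : ℚ} (hc : ∃ t : ℤ, 2 * c = t) {x y : Wt n} (hx : Cls c x) (hy : Cls c y)
    (i j : Fin n) : ∃ z : ℤ, x i + y j = z := by
  obtain ⟨a, ha⟩ := hx i
  obtain ⟨b, hb⟩ := hy j
  obtain ⟨t, ht⟩ := hc
  exact ⟨a + b + t, by rw [ha, hb]; push_cast; rw [← ht]; ring⟩

theorem Cls.isInt_sub_act {c : ℚ} (hc : ∃ t : ℤ, 2 * c = t) {x y : Wt n} (hx : Cls c x)
    (hy : Cls c y) (σ : Equiv.Perm (Fin n)) (ε : Fin n → ℤˣ) : IsInt (x - act σ ε y) := by
  intro i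
  rcases Int.units_eq_one_or (ε i) with h | h
  · obtain ⟨z, hz⟩ := hx.sub_int hy i (σ i)
    exact ⟨z, by simp [act, h, hz]⟩
  · obtain ⟨z, hz⟩ := Cls.add_int hc hx hy i (σ i)
    exact ⟨z, by simp [act, h, hz]⟩

theorem Cls.isInt_sub {c : ℚ} {x y : Wt n} (hx : Cls c x) (hy : Cls c y) : IsInt (x - y) :=
  fun i => hx.sub_int hy i i

theorem Cls.exists_L {c : ℚ} (hc : ∃ t : ℤ, 2 * c = t) {x y : Wt n} (hx : Cls c x) (hy : Cls c y)
    (i j : Fin n) : ∃ z : ℤ, min (x i) (y i) - max |x j| |y j| = z := by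
  rcases min_choice (x i) (y i) with h1 | h1 <;> rcases max_choice |x j| |y j| with h2 | h2 <;>
    rw [h1, h2]
  · rcases abs_choice (x j) with h3 | h3 <;> rw [h3]
    · exact hx.sub_int hx i j
    · rw [sub_neg_eq_add]; exact Cls.add_int hc hx hx i j
  · rcases abs_choice (y j) with h3 | h3 <;> rw [h3]
    · exact hx.sub_int hy i j
    · rw [sub_neg_eq_add]; exact Cls.add_int hc hx hy i j
  · rcases abs_choice (x j) with h3 | h3 <;> rw [h3]
    · exact hy.sub_int hx i j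
    · rw [sub_neg_eq_add]; exact Cls.add_int hc hy hx i j
  · rcases abs_choice (y j) with h3 | h3 <;> rw [h3]
    · exact hy.sub_int hy i j
    · rw [sub_neg_eq_add]; exact Cls.add_int hc hy hy i j

theorem cls_zero_iff {x : Wt n} : Cls 0 x ↔ IsInt x := by
  simp [Cls, IsInt]

theorem rho_nonneg (i : Fin n) : 0 ≤ rho n i := by
  unfold rho
  have : ((i : ℕ) : ℚ) + 1 ≤ (n : ℚ) := by exact_mod_cast i.2
  linarith

theorem rho_lt {i j : Fin n} (hij : i < j) : rho n j < rho n i := by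
  unfold rho
  have : ((i : ℕ) : ℚ) < ((j : ℕ) : ℚ) := by exact_mod_cast hij
  linarith

theorem isInt_rho : IsInt (rho n) := fun i => ⟨(n : ℤ) - 1 - (i : ℕ), by simp [rho]⟩

theorem rho_castSucc {m : ℕ} (i : Fin m) :
    rho (m + 1) i.castSucc = rho (m + 1) i.succ + 1 := by
  simp [rho]; ring

theorem rho_last (m : ℕ) : rho (m + 1) (Fin.last m) = 0 := by
  simp [rho]

theorem sdom_add_rho {lam : Wt n} (h : IsDominant lam) : SDom (lam + rho n) := by
  intro i j hij
  have h1 := h i j hij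
  have h2 := rho_lt hij
  have h3 := rho_nonneg j
  calc |(lam + rho n) j| ≤ |lam j| + |rho n j| := abs_add_le _ _
    _ = |lam j| + rho n j := by rw [abs_of_nonneg h3]
    _ < lam i + rho n i := by linarith

theorem isDominant_zero : IsDominant (0 : Wt n) := by
  intro i j _; simp

theorem sdom_rho : SDom (rho n) := by
  have := sdom_add_rho (n := n) isDominant_zero
  simpa using this

theorem isDominant_smul_omega1 (k : ℕ) : IsDominant (k • omega1 n) := by
  intro i j hij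
  have hj : (j : ℕ) ≠ 0 := by
    have : (i : ℕ) < (j : ℕ) := hij
    omega
  simp only [Pi.smul_apply, omega1, if_neg hj, smul_zero, abs_zero]
  split_ifs <;> simp

theorem isInt_smul_omega1 (k : ℕ) : IsInt (k • omega1 n) := by
  intro i
  by_cases h : (i : ℕ) = 0
  · exact ⟨k, by simp [omega1, h]⟩
  · exact ⟨0, by simp [omega1, h]⟩

theorem IsInt.add {x y : Wt n} (hx : IsInt x) (hy : IsInt y) : IsInt (x + y) := by
  intro i
  obtain ⟨a, ha⟩ := hx i
  obtain ⟨b, hb⟩ := hy i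
  exact ⟨a + b, by simp [ha, hb]⟩

theorem IsInt.sub {x y : Wt n} (hx : IsInt x) (hy : IsInt y) : IsInt (x - y) := by
  intro i
  obtain ⟨a, ha⟩ := hx i
  obtain ⟨b, hb⟩ := hy i
  exact ⟨a - b, by simp [ha, hb]⟩

end Vale.Agent.Lib.P182
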