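import Vale.Agent.Lib.P182.WeylChar

/-!
# The non-vanishing criterion (Pieri rule) for `V(lam) ⊗ V(k ω_1)`
-/

namespace Vale.Agent.Lib.P182

open Finset Polynomial

variable {n : ℕ}

theorem abs_add_rho {κ : Wt n} (h : IsDominant κ) (j : Fin n) :
    |κ j + rho n j| = |κ j| + rho n j := by
  by_cases hj : (j : ℕ) + 1 = n
  · have : rho n j = 0 := by
      unfold rho
      have : ((j : ℕ) : ℚ) + 1 = (n : ℚ) := by exact_mod_cast hj
      linarith
    rw [this, add_zero, add_zero]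
  · have hlt : (j : ℕ) + 1 < n := by have := j.2; omega
    have h1 := h j ⟨(j : ℕ) + 1, hlt⟩ (by rw [Fin.lt_def]; simp)
    have h2 : 0 ≤ κ j := le_trans (abs_nonneg _) h1
    rw [abs_of_nonneg h2, abs_of_nonneg (add_nonneg h2 (rho_nonneg j))]

theorem Cls.add_rho {c : ℚ} {x : Wt n} (hx : Cls c x) : Cls c (x + rho n) := by
  intro i
  obtain ⟨a, ha⟩ := hx i
  obtain ⟨b, hb⟩ := isInt_rho (n := n) i
  exact ⟨a + b, by rw [Pi.add_apply, ha, hb]; push_cast; ring⟩

/-- The Pieri rule for `D_{m+2}`, as a non-vanishing criterion. -/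
theorem tensorMult_ne_zero_iff (m k : ℕ) (lam κ : Wt (m + 2)) (c : ℚ) (hc : ∃ t : ℤ, 2 * c = t)
    (hl : Cls c lam) (hκ : Cls c κ) (dl : IsDominant lam) (dκ : IsDominant κ) :
    tensorMult lam (k • omega1 (m + 2)) κ ≠ 0 ↔
      ∃ j : Fin (m + 1) → ℕ,
        (∀ i : Fin (m + 1), (j i : ℚ) ≤
          min (lam i.castSucc) (κ i.castSucc) - max |lam i.succ| |κ i.succ|) ∧
        l1 (κ - lam) + 2 * ∑ i, (j i : ℚ) = k := by
  unfold tensorMult
  rw [weylChar_smul_omega1]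
  choose w hw using fun i : Fin (m + 1) => Cls.exists_L hc hl hκ i.castSucc i.succ
  have hd : l1 ((κ + rho (m + 2)) - (lam + rho (m + 2))) = ((⌊l1 (κ - lam)⌋₊ : ℕ) : ℚ) := by
    rw [add_sub_add_right_eq_sub, (hκ.isInt_sub hl).l1_eq]
  have hz : ∀ i : Fin (m + 1),
      min ((κ + rho (m + 2)) i.castSucc) ((lam + rho (m + 2)) i.castSucc)
        - max |(κ + rho (m + 2)) i.succ| |(lam + rho (m + 2)) i.succ| = ((w i + 1 : ℤ) : ℚ) := by
    intro i
    have e2 : rho (m + 2) i.castSucc = rho (m + 2) i.succ + 1 := rho_castSucc i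
    simp only [Pi.add_apply]
    rw [abs_add_rho dκ, abs_add_rho dl, min_add_add_right, max_add_add_right, min_comm, max_comm]
    push_cast
    rw [← hw i, e2]
    ring
  rw [coeff_alt_mul_Hk_eval (m + 1) k _ _ (sdom_add_rho dκ) (sdom_add_rho dl)
    (fun σ ε => Cls.isInt_sub_act hc hκ.add_rho hl.add_rho σ ε) _ hd _ hz,
    coeff_X_pow_mul_prod_geom_ne_zero]
  have hD := (hκ.isInt_sub hl).l1_eq
  constructor
  · rintro ⟨j, hj1, hj2⟩
    refine ⟨j, fun i => ?_, ?_⟩
    · have h1 := Int.lt_toNat.mp (hj1 i)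
      have h2 : (j i : ℤ) ≤ w i := by omega
      rw [hw i]
      exact_mod_cast h2
    · rw [← hD, ← hj2]
      push_cast
      ring
  · rintro ⟨j, hj1, hj2⟩
    refine ⟨j, fun i => ?_, ?_⟩
    · have h1 := hj1 i
      rw [hw i] at h1
      have h2 : (j i : ℤ) ≤ w i := by exact_mod_cast h1
      exact Int.lt_toNat.mpr (by omega)
    · rw [← hD] at hj2
      exact_mod_cast hj2

end Vale.Agent.Lib.P182
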