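import Mathlib

/-!
# Tensor product multiplicities of `Spin(2n)` through Weyl's character formula

Weights of `Spin(2n)` are written in the standard coordinates `x = (x_1, ..., x_n)`, all `x_i`
integers or all `x_i` half-odd integers.  Formal characters live in the group ring `ℤ[ℚ^n]`.
-/

namespace Vale.Agent.Lib.P182

/-- Coordinate vectors of weights. -/
abbrev Wt (n : ℕ) := Fin n → ℚ

/-- The group ring `ℤ[ℚ^n]` of formal characters; `single x 1` is the formal exponential `e^x`. -/
abbrev CharRing (n : ℕ) := AddMonoidAlgebra ℤ (Wt n)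

/-- Integral weights of `Spin(2n)`: all coordinates in `ℤ`, or all coordinates in `1/2 + ℤ`. -/
def IsWeight {n : ℕ} (x : Wt n) : Prop :=
  (∀ i, ∃ z : ℤ, x i = z) ∨ (∀ i, ∃ z : ℤ, x i = z + 1 / 2)

/-- Dominance for type `D_n`: `x_i ≥ |x_j|` for `i < j`,
i.e. `x_1 ≥ x_2 ≥ ... ≥ x_{n-1} ≥ |x_n|`. -/
def IsDominant {n : ℕ} (x : Wt n) : Prop := ∀ i j : Fin n, i < j → |x j| ≤ x i

/-- The root lattice `Q(D_n)`: integer vectors with even coordinate sum. -/
def InRootLattice {n : ℕ} (x : Wt n) : Prop :=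
  (∀ i, ∃ z : ℤ, x i = z) ∧ ∃ m : ℤ, ∑ i, x i = 2 * m

/-- The half sum of the positive roots `ρ = (n-1, n-2, ..., 1, 0)`. -/
def rho (n : ℕ) : Wt n := fun i => (n : ℚ) - 1 - (i : ℕ)

/-- The first fundamental weight `ω_1 = (1, 0, ..., 0)` (highest weight of the vector
representation `ℂ^{2n}`). -/
def omega1 (n : ℕ) : Wt n := fun i => if (i : ℕ) = 0 then 1 else 0

/-- The action of a signed permutation `(σ, ε)` on coordinates. -/
def act {n : ℕ} (σ : Equiv.Perm (Fin n)) (ε : Fin n → ℤˣ) (x : Wt n) : Wt n :=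
  fun i => ((ε i : ℤ) : ℚ) * x (σ i)

/-- The Weyl alternant `A_x = ∑_{w ∈ W(D_n)} sgn(w) e^{w x}`; the Weyl group `W(D_n)` consists of
the signed permutations with an even number of sign changes, and `sgn(w)` is the sign of the
underlying permutation. -/
noncomputable def alt {n : ℕ} (x : Wt n) : CharRing n :=
  ∑ σ : Equiv.Perm (Fin n), ∑ ε ∈ Finset.univ.filter (fun ε : Fin n → ℤˣ => ∏ i, ε i = 1),
    AddMonoidAlgebra.single (act σ ε x) ((Equiv.Perm.sign σ : ℤˣ) : ℤ)

open Classical in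
/-- The character of `V(ν)` given by Weyl's character formula: the element `χ` of the group ring
with `χ * A_ρ = A_{ν + ρ}`. -/
noncomputable def weylChar {n : ℕ} (ν : Wt n) : CharRing n :=
  if h : ∃ χ : CharRing n, χ * alt (rho n) = alt (ν + rho n) then h.choose else 0

/-- The multiplicity of `V(κ)` in `V(lam) ⊗ V(ν)` (Brauer-Klimyk): the coefficient of
`e^{κ + ρ}` in `A_{lam + ρ} * χ_ν`. -/
noncomputable def tensorMult {n : ℕ} (lam ν κ : Wt n) : ℤ :=
  (alt (lam + rho n) * weylChar ν).coeff (κ + rho n)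

/-- The highest weight `-w_0 μ` of the dual representation `V(μ)^*`: for `D_n` it is `μ` if `n` is
even, and `μ` with the sign of the last coordinate changed if `n` is odd. -/
def dualWt {n : ℕ} (μ : Wt n) : Wt n :=
  fun i => if Odd n ∧ (i : ℕ) + 1 = n then - μ i else μ i

/-- `dim (V(lam) ⊗ V(μ) ⊗ V(ν))^G`, computed as the multiplicity of `V(μ)^*` in
`V(lam) ⊗ V(ν)`. -/
noncomputable def invDim {n : ℕ} (lam μ ν : Wt n) : ℤ := tensorMult lam ν (dualWt μ)

end Vale.Agent.Lib.P182
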