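import Vale.Agent.Lib.P182.Alt

/-!
# The generating function of `l^1`-distances over the Weyl group
-/

namespace Vale.Agent.Lib.P182

open Finset Polynomial

/-- The ring `ℤ[T^ℚ]` of polynomials with rational exponents. -/
abbrev TR := AddMonoidAlgebra ℤ ℚ

/-- The monomial `T^a`. -/
noncomputable def E (a : ℚ) : TR := AddMonoidAlgebra.single a 1

theorem E_zero : E 0 = 1 := rfl

theorem E_add (x y : ℚ) : E (x + y) = E x * E y := by
  simp [E, AddMonoidAlgebra.single_mul_single]

theorem E_sum {ι : Type*} (s : Finset ι) (f : ι → ℚ) : E (∑ i ∈ s, f i) = ∏ i ∈ s, E (f i) := by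
  classical
  induction s using Finset.induction_on with
  | empty => simp [E_zero]
  | insert a s ha ih => rw [Finset.sum_insert ha, Finset.prod_insert ha, E_add, ih]

variable {n : ℕ}

/-- `∑_w sgn(w) T^{|x - w β|_1}`. -/
noncomputable def Dsum (x β : Wt n) : TR :=
  wsum fun σ ε => ((Equiv.Perm.sign σ : ℤˣ) : ℤ) • E (∑ i, |x i - act σ ε β i|)

theorem ker_eq_sum_units (u : ℕ) (a b : ℚ) :
    ker E ((-1) ^ u) a b = ∑ e : ℤˣ, (((e : ℤ) : TR)) ^ u * E |a - ((e : ℤ) : ℚ) * b| := by
  rw [UnitsInt.univ, Finset.sum_pair (by decide)]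
  simp [ker, sub_eq_add_neg]

theorem det_kmat_eq_sum (u : ℕ) (x β : Wt n) :
    Matrix.det (kmat E ((-1) ^ u) x β)
      = ∑ σ : Equiv.Perm (Fin n), ∑ ε : Fin n → ℤˣ,
          ((Equiv.Perm.sign σ : ℤˣ) : ℤ) •
            ((((∏ i, ε i : ℤˣ) : ℤ) : TR) ^ u * E (∑ i, |x i - act σ ε β i|)) := by
  rw [← Matrix.det_transpose, Matrix.det_apply]
  refine Finset.sum_congr rfl fun σ _ => ?_
  rw [← Finset.smul_sum]
  rw [Units.smul_def]
  congr 1
  simp only [Matrix.transpose_apply, kmat, Matrix.of_apply, ker_eq_sum_units]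
  rw [Finset.prod_univ_sum]
  simp only [Fintype.piFinset_univ]
  refine Finset.sum_congr rfl fun ε _ => ?_
  rw [Finset.prod_mul_distrib, E_sum, Finset.prod_pow]
  congr 2
  push_cast
  rfl

theorem two_smul_Dsum (x β : Wt n) :
    (2 : ℤ) • Dsum x β
      = Matrix.det (kmat E ((-1) ^ 0) x β) + Matrix.det (kmat E ((-1) ^ 1) x β) := by
  rw [det_kmat_eq_sum, det_kmat_eq_sum, ← Finset.sum_add_distrib]
  unfold Dsum wsum
  rw [Finset.smul_sum]
  refine Finset.sum_congr rfl fun σ _ => ?_
  rw [← Finset.sum_add_distrib, Finset.smul_sum, evenSigns, Finset.sum_filter]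
  refine Finset.sum_congr rfl fun ε _ => ?_
  rcases Int.units_eq_one_or (∏ i, ε i) with h | h
  · rw [if_pos h, h]
    simp only [pow_zero, pow_one, Units.val_one, Int.cast_one, one_mul]
    rw [two_smul]
  · rw [if_neg (by rw [h]; decide), h]
    simp

theorem two_smul_cancel {A B : TR} (h : (2 : ℤ) • A = (2 : ℤ) • B) : A = B := by
  ext q
  have := congrArg (fun f : TR => f.coeff q) h
  simp only [AddMonoidAlgebra.coeff_smul, Finsupp.smul_apply, smul_eq_mul] at this
  omega

/-- The evaluation of the generating function at strictly dominant points. -/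
theorem Dsum_eval {m : ℕ} (x β : Wt (m + 1)) (hx : SDom x) (hβ : SDom β) :
    Dsum x β = (∏ i : Fin m, (E |x i.castSucc - β i.castSucc|
            * pos E (min (x i.castSucc) (β i.castSucc) - max |x i.succ| |β i.succ|)))
          * E |x (Fin.last m) - β (Fin.last m)| := by
  apply two_smul_cancel
  rw [two_smul_Dsum, det_kmat E E_zero E_add _ (by simp) m x β hx hβ,
    det_kmat E E_zero E_add _ (by simp) m x β hx hβ, ← mul_add]
  simp only [ker, pow_zero, pow_one]
  rw [two_smul]
  ring

end Vale.Agent.Lib.P182
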