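import Vale.Agent.Lib.P182.Poly

/-!
# The character of `V(k ω_1)` and the Pieri rule for `D_n`
-/

namespace Vale.Agent.Lib.P182

open Finset Polynomial

variable {n : ℕ}

/-- integer vectors -/
def IsInt (γ : Wt n) : Prop := ∀ i, ∃ z : ℤ, γ i = z

/-- the `l^1` norm -/
def l1 (γ : Wt n) : ℚ := ∑ i, |γ i|

theorem l1_act (τ : Equiv.Perm (Fin n)) (δ : Fin n → ℤˣ) (γ : Wt n) : l1 (act τ δ γ) = l1 γ := by
  unfold l1
  simp only [abs_act]
  exact Equiv.sum_comp τ fun i => |γ i|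

theorem isInt_act (τ : Equiv.Perm (Fin n)) (δ : Fin n → ℤˣ) (γ : Wt n) :
    IsInt (act τ δ γ) ↔ IsInt γ := by
  constructor
  · intro h i
    obtain ⟨z, hz⟩ := h (τ.symm i)
    simp only [act, Equiv.apply_symm_apply] at hz
    rcases Int.units_eq_one_or (δ (τ.symm i)) with h2 | h2
    · exact ⟨z, by simpa [h2] using hz⟩
    · refine ⟨-z, ?_⟩
      simp [h2] at hz
      push_cast
      linarith
  · intro h i
    obtain ⟨z, hz⟩ := h (τ i)
    exact ⟨(δ i : ℤ) * z, by simp [act, hz]⟩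

theorem IsInt.l1_eq {γ : Wt n} (h : IsInt γ) : ((⌊l1 γ⌋₊ : ℕ) : ℚ) = l1 γ := by
  choose z hz using h
  have : l1 γ = ((∑ i, (z i).natAbs : ℕ) : ℚ) := by
    unfold l1
    push_cast
    refine Finset.sum_congr rfl fun i _ => ?_
    rw [hz i]
    simp
  rw [this, Nat.floor_natCast]

theorem abs_le_l1 (γ : Wt n) (i : Fin n) : |γ i| ≤ l1 γ :=
  Finset.single_le_sum (f := fun i => |γ i|) (fun _ _ => abs_nonneg _) (Finset.mem_univ i)

/-- truncated expansion of `(1 - X^2)^(-m)`. -/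
noncomputable def gpoly (m k : ℕ) : ℤ[X] := geom (k + 1) ^ m

open Classical in
/-- the weight multiplicities of `V(k ω_1)` for `D_{m+1}`. -/
noncomputable def hcoef (m k : ℕ) (γ : Wt (m + 1)) : ℤ :=
  if IsInt γ then (X ^ ⌊l1 γ⌋₊ * gpoly m k).coeff k else 0

theorem hcoef_support_finite (m k : ℕ) : (Function.support (hcoef m k)).Finite := by
  classical
  refine Set.Finite.subset
    ((Finset.finite_toSet (Fintype.piFinset fun _ : Fin (m + 1) =>
      Finset.Icc (-(k : ℤ)) k)).image (fun z i => ((z i : ℤ) : ℚ))) ?_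
  intro γ hγ
  rw [Function.mem_support] at hγ
  unfold hcoef at hγ
  by_cases hint : IsInt γ
  · rw [if_pos hint, Polynomial.coeff_X_pow_mul'] at hγ
    have hle : ⌊l1 γ⌋₊ ≤ k := by
      by_contra hcon
      rw [if_neg hcon] at hγ
      exact hγ rfl
    have hl1 : l1 γ ≤ k := by
      rw [← hint.l1_eq]
      exact_mod_cast hle
    choose z hz using hint
    refine ⟨z, ?_, ?_⟩
    · refine Finset.mem_coe.mpr (Fintype.mem_piFinset.mpr fun i => Finset.mem_Icc.mpr ?_)
      have h1 := le_trans (abs_le_l1 γ i) hl1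
      rw [hz i] at h1
      have h2 : |z i| ≤ (k : ℤ) := by exact_mod_cast h1
      exact abs_le.mp h2
    · funext i
      exact (hz i).symm
  · rw [if_neg hint] at hγ
    exact absurd rfl hγ

/-- the candidate for the character of `V(k ω_1)`. -/
noncomputable def Hk (m k : ℕ) : CharRing (m + 1) :=
  AddMonoidAlgebra.ofCoeff (Finsupp.ofSupportFinite (hcoef m k) (hcoef_support_finite m k))

theorem Hk_coeff (m k : ℕ) (γ : Wt (m + 1)) : (Hk m k).coeff γ = hcoef m k γ := rfl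

theorem hcoef_act (m k : ℕ) (τ : Equiv.Perm (Fin (m + 1))) (δ : Fin (m + 1) → ℤˣ)
    (γ : Wt (m + 1)) : hcoef m k (act τ δ γ) = hcoef m k γ := by
  classical
  unfold hcoef
  rw [l1_act]
  exact if_congr (isInt_act τ δ γ) rfl rfl

theorem hcoef_eq (m k : ℕ) {γ : Wt (m + 1)} (h : IsInt γ) :
    hcoef m k γ = (E (l1 γ) * phi (gpoly m k)).coeff (k : ℚ) := by
  unfold hcoef
  rw [if_pos h, ← phi_coeff, map_mul, phi_X_pow, h.l1_eq]

theorem coeff_alt_mul_Hk (m k : ℕ) (x β : Wt (m + 1))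
    (hint : ∀ σ ε, IsInt (x - act σ ε β)) :
    (alt β * Hk m k).coeff x = (Dsum x β * phi (gpoly m k)).coeff (k : ℚ) := by
  rw [coeff_alt_mul]
  unfold Dsum wsum
  rw [Finset.sum_mul, AddMonoidAlgebra.coeff_sum, Finsupp.finsetSum_apply]
  refine Finset.sum_congr rfl fun σ _ => ?_
  rw [Finset.sum_mul, AddMonoidAlgebra.coeff_sum, Finsupp.finsetSum_apply]
  refine Finset.sum_congr rfl fun ε _ => ?_
  beta_reduce
  rw [Hk_coeff, hcoef_eq m k (hint σ ε), smul_mul_assoc, AddMonoidAlgebra.coeff_smul,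
    Finsupp.smul_apply, smul_eq_mul]
  rfl

theorem coeff_alt_mul_Hk_of_not_int (m k : ℕ) (x β : Wt (m + 1))
    (hint : ∀ σ ε, ¬ IsInt (x - act σ ε β)) :
    (alt β * Hk m k).coeff x = 0 := by
  rw [coeff_alt_mul]
  unfold wsum
  refine Finset.sum_eq_zero fun σ _ => Finset.sum_eq_zero fun ε _ => ?_
  beta_reduce
  rw [Hk_coeff, hcoef, if_neg (hint σ ε), mul_zero]

/-- The Pieri rule in generating function form. -/
theorem coeff_alt_mul_Hk_eval (m k : ℕ) (x β : Wt (m + 1)) (hx : SDom x) (hβ : SDom β)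
    (hint : ∀ σ ε, IsInt (x - act σ ε β)) (d : ℕ) (hd : l1 (x - β) = d) (z : Fin m → ℤ)
    (hz : ∀ i : Fin m, min (x i.castSucc) (β i.castSucc) - max |x i.succ| |β i.succ| = z i) :
    (alt β * Hk m k).coeff x = (X ^ d * ∏ i, geom (z i).toNat).coeff k := by
  rw [coeff_alt_mul_Hk m k x β hint, Dsum_eval x β hx hβ]
  have h1 : (∏ i : Fin m, (E |x i.castSucc - β i.castSucc|
            * pos E (min (x i.castSucc) (β i.castSucc) - max |x i.succ| |β i.succ|)))
          * E |x (Fin.last m) - β (Fin.last m)|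
      = phi (X ^ d * ∏ i, (1 - X ^ (2 * (z i).toNat))) := by
    rw [Finset.prod_mul_distrib, map_mul, phi_X_pow, ← hd, map_prod]
    unfold l1
    rw [Fin.sum_univ_castSucc, E_add, E_sum]
    simp only [hz, pos_intCast, Pi.sub_apply]
    ring
  rw [h1, ← map_mul, phi_coeff]
  have h2 : (X ^ d * ∏ i, (1 - X ^ (2 * (z i).toNat))) * gpoly m k
      = (X ^ d * ∏ i, geom (z i).toNat) * (1 - X ^ (2 * (k + 1)) : ℤ[X]) ^ m := by
    simp only [← one_sub_mul_geom, gpoly]
    rw [Finset.prod_mul_distrib, Finset.prod_const, Finset.card_univ, Fintype.card_fin, mul_pow]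
    ring
  rw [h2, coeff_mul_one_sub_pow]

end Vale.Agent.Lib.P182
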