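import Vale.Agent.Lib.P182.Dsum

/-!
# Polynomial bookkeeping
-/

namespace Vale.Agent.Lib.P182

open Finset Polynomial

/-- The substitution `X ↦ T`. -/
noncomputable def phi : ℤ[X] →+* TR := Polynomial.eval₂RingHom (Int.castRingHom TR) (E 1)

theorem phi_X_pow (N : ℕ) : phi (X ^ N) = E N := by
  simp [phi, E, AddMonoidAlgebra.single_pow]

theorem phi_coeff (p : ℤ[X]) (k : ℕ) : (phi p).coeff (k : ℚ) = p.coeff k := by
  classical
  induction p using Polynomial.induction_on' with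
  | add p q hp hq => simp [hp, hq]
  | monomial j a =>
    have : phi (monomial j a) = AddMonoidAlgebra.single (j : ℚ) a := by
      rw [← Polynomial.C_mul_X_pow_eq_monomial, map_mul, phi_X_pow]
      simp [phi, E, AddMonoidAlgebra.intCast_def, AddMonoidAlgebra.single_mul_single]
    rw [this, Polynomial.coeff_monomial]
    simp [Finsupp.single_apply]

/-- `1 + X^2 + ... + X^(2 (l - 1))`. -/
noncomputable def geom (l : ℕ) : ℤ[X] := ∑ j ∈ range l, X ^ (2 * j)

theorem one_sub_mul_geom (l : ℕ) : (1 - X ^ 2) * geom l = 1 - X ^ (2 * l) := by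
  have := mul_neg_geom_sum (X ^ 2 : ℤ[X]) l
  simp only [← pow_mul] at this
  exact this

theorem geom_one : geom 1 = 1 := by simp [geom]

theorem pos_intCast (z : ℤ) : pos E (z : ℚ) = phi (1 - X ^ (2 * z.toNat)) := by
  unfold pos
  by_cases hz : 0 < z
  · rw [if_pos (by exact_mod_cast hz), map_sub, map_one, phi_X_pow]
    have h2 : ((2 * z.toNat : ℕ) : ℚ) = 2 * (z : ℚ) := by
      have h3 : ((z.toNat : ℕ) : ℚ) = (z : ℚ) := by
        have := Int.toNat_of_nonneg hz.le
        exact_mod_cast this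
      rw [Nat.cast_mul, h3]; norm_num
    rw [h2]
  · rw [if_neg (by exact_mod_cast hz)]
    have : z.toNat = 0 := Int.toNat_eq_zero.mpr (not_lt.mp hz)
    simp [this]

theorem coeff_mul_one_sub_pow (A : ℤ[X]) (k m : ℕ) :
    (A * (1 - X ^ (2 * (k + 1))) ^ m).coeff k = A.coeff k := by
  obtain ⟨Rr, hR⟩ := sub_dvd_pow_sub_pow (1 : ℤ[X]) (1 - X ^ (2 * (k + 1))) m
  have h1 : (1 - X ^ (2 * (k + 1)) : ℤ[X]) ^ m = 1 - X ^ (2 * (k + 1)) * Rr := by
    have : (1 : ℤ[X]) - (1 - X ^ (2 * (k + 1))) = X ^ (2 * (k + 1)) := by ring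
    rw [this, one_pow] at hR
    rw [← hR]; ring
  rw [h1]
  have h2 : A * (1 - X ^ (2 * (k + 1)) * Rr) = A - X ^ (2 * (k + 1)) * (A * Rr) := by ring
  rw [h2, Polynomial.coeff_sub, Polynomial.coeff_X_pow_mul', if_neg (by omega), sub_zero]

theorem coeff_X_pow_mul_prod_geom {m : ℕ} (d : ℕ) (l : Fin m → ℕ) (k : ℕ) :
    (X ^ d * ∏ i, geom (l i)).coeff k
      = (((Fintype.piFinset fun i => range (l i)).filter
          fun j : Fin m → ℕ => d + 2 * ∑ i, j i = k).card : ℤ) := by
  unfold geom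
  rw [Finset.prod_univ_sum, Finset.mul_sum, Polynomial.finsetSum_coeff, Finset.card_filter]
  push_cast
  refine Finset.sum_congr rfl fun j _ => ?_
  rw [Finset.prod_pow_eq_pow_sum, ← pow_add, Polynomial.coeff_X_pow, ← Finset.mul_sum]
  simp [eq_comm]

theorem coeff_X_pow_mul_prod_geom_ne_zero {m : ℕ} (d : ℕ) (l : Fin m → ℕ) (k : ℕ) :
    (X ^ d * ∏ i, geom (l i)).coeff k ≠ 0
      ↔ ∃ j : Fin m → ℕ, (∀ i, j i < l i) ∧ d + 2 * ∑ i, j i = k := by
  rw [coeff_X_pow_mul_prod_geom, Nat.cast_ne_zero, ← Nat.pos_iff_ne_zero, Finset.card_pos]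
  constructor
  · rintro ⟨j, hj⟩
    rw [Finset.mem_filter, Fintype.mem_piFinset] at hj
    exact ⟨j, fun i => Finset.mem_range.mp (hj.1 i), hj.2⟩
  · rintro ⟨j, hj1, hj2⟩
    exact ⟨j, by
      rw [Finset.mem_filter, Fintype.mem_piFinset]
      exact ⟨fun i => Finset.mem_range.mpr (hj1 i), hj2⟩⟩

/-- discrete intermediate value: every `e ≤ ∑ c i` is a sum of `j i ≤ c i`. -/
theorem exists_le_sum_eq {ι : Type*} (s : Finset ι) (c : ι → ℕ) (e : ℕ) (he : e ≤ ∑ i ∈ s, c i) :
    ∃ j : ι → ℕ, (∀ i, j i ≤ c i) ∧ ∑ i ∈ s, j i = e := by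
  classical
  induction s using Finset.induction_on generalizing e with
  | empty =>
    refine ⟨fun _ => 0, fun _ => Nat.zero_le _, ?_⟩
    simp at he ⊢
    omega
  | insert a s ha ih =>
    rw [Finset.sum_insert ha] at he
    obtain ⟨j, hj1, hj2⟩ := ih (e - min e (c a)) (by omega)
    refine ⟨Function.update j a (min e (c a)), ?_, ?_⟩
    · intro i
      by_cases hi : i = a
      · subst hi; simp
      · simp [Function.update_of_ne hi, hj1 i]
    · rw [Finset.sum_insert ha, Function.update_self]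
      have : ∑ i ∈ s, Function.update j a (min e (c a)) i = ∑ i ∈ s, j i := by
        refine Finset.sum_congr rfl fun i hi => ?_
        rw [Function.update_of_ne]
        rintro rfl
        exact ha hi
      rw [this, hj2]
      omega

end Vale.Agent.Lib.P182
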