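import Vale.Agent.Lib.P182.Criterion

/-!
# Saturation for triples `(lam, mu, k ω_1)`
-/

namespace Vale.Agent.Lib.P182

open Finset

variable {n : ℕ}

theorem dualWt_smul (N : ℕ) (mu : Wt n) : dualWt (N • mu) = N • dualWt mu := by
  funext i
  simp only [dualWt, Pi.smul_apply]
  split_ifs <;> simp

theorem abs_dualWt (mu : Wt n) (i : Fin n) : |dualWt mu i| = |mu i| := by
  simp only [dualWt]
  split_ifs <;> simp

theorem isDominant_dualWt {mu : Wt n} (h : IsDominant mu) : IsDominant (dualWt mu) := by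
  intro i j hij
  rw [abs_dualWt]
  have : ¬ (Odd n ∧ (i : ℕ) + 1 = n) := by
    rintro ⟨_, h2⟩
    have h3 : (i : ℕ) < (j : ℕ) := hij
    have := j.2
    omega
  simp only [dualWt, if_neg this]
  exact h i j hij

theorem Cls.dualWt {c : ℚ} (hc : ∃ t : ℤ, 2 * c = t) {mu : Wt n} (h : Cls c mu) :
    Cls c (dualWt mu) := by
  intro i
  obtain ⟨z, hz⟩ := h i
  obtain ⟨t, ht⟩ := hc
  simp only [Vale.Agent.Lib.P182.dualWt]
  split_ifs
  · exact ⟨-z - t, by rw [hz]; push_cast; rw [← ht]; ring⟩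
  · exact ⟨z, hz⟩

theorem IsDominant.nsmul (N : ℕ) {x : Wt n} (h : IsDominant x) : IsDominant (N • x) := by
  intro i j hij
  simp only [Pi.smul_apply, nsmul_eq_mul]
  rw [abs_mul, abs_of_nonneg (Nat.cast_nonneg N)]
  exact mul_le_mul_of_nonneg_left (h i j hij) (Nat.cast_nonneg N)

theorem Cls.nsmul (N : ℕ) {c : ℚ} {x : Wt n} (h : Cls c x) : Cls (N * c) (N • x) := by
  intro i
  obtain ⟨z, hz⟩ := h i
  exact ⟨N * z, by simp only [Pi.smul_apply, nsmul_eq_mul]; rw [hz]; push_cast; ring⟩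

theorem l1_nsmul (N : ℕ) (γ : Wt n) : l1 (N • γ) = N * l1 γ := by
  unfold l1
  rw [Finset.mul_sum]
  refine Finset.sum_congr rfl fun i _ => ?_
  simp only [Pi.smul_apply, nsmul_eq_mul]
  rw [abs_mul, abs_of_nonneg (Nat.cast_nonneg N)]

theorem scale_L (N : ℕ) (a b c e : ℚ) :
    min ((N : ℚ) * a) (N * b) - max |(N : ℚ) * c| |(N : ℚ) * e| = N * (min a b - max |c| |e|) := by
  have hN : (0 : ℚ) ≤ N := Nat.cast_nonneg N
  rw [abs_mul, abs_mul, abs_of_nonneg hN, ← mul_min_of_nonneg _ _ hN, ← mul_max_of_nonneg _ _ hN]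
  ring

theorem sum_smul_omega1 (m k : ℕ) : ∑ i, (k • omega1 (m + 2)) i = k := by
  rw [Fin.sum_univ_succ, smul_omega1_zero]
  simp only [smul_omega1_succ]
  simp

/-- the parity statement hidden in the root lattice condition. -/
theorem parity_of_rootLattice (m k : ℕ) (lam mu : Wt (m + 2)) (c : ℚ) (t : ℤ) (ht : 2 * c = t)
    (hl : Cls c lam) (hm : Cls c mu) (hQ : InRootLattice (lam + mu + k • omega1 (m + 2))) :
    ∃ s : ℤ, (k : ℚ) - l1 (dualWt mu - lam) = 2 * s := by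
  obtain ⟨_, M, hM⟩ := hQ
  simp only [Pi.add_apply, Finset.sum_add_distrib, sum_smul_omega1] at hM
  -- termwise analysis
  have hterm : ∀ i : Fin (m + 2), ∃ v : ℤ,
      lam i + mu i + |dualWt mu i - lam i|
        = 2 * v + (if Odd (m + 2) ∧ (i : ℕ) + 1 = m + 2 then 0 else (t : ℚ)) := by
    intro i
    obtain ⟨a, ha⟩ := hl i
    obtain ⟨b, hb⟩ := hm i
    simp only [dualWt]
    split_ifs with hi
    · rcases abs_choice (-mu i - lam i) with h | h <;> rw [h]
      · exact ⟨0, by push_cast; ring⟩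
      · exact ⟨a + b + t, by rw [ha, hb]; push_cast; rw [← ht]; ring⟩
    · rcases abs_choice (mu i - lam i) with h | h <;> rw [h]
      · exact ⟨b, by rw [hb, ← ht]; ring⟩
      · exact ⟨a, by rw [ha, ← ht]; ring⟩
  choose v hv using hterm
  have hsum : ∑ i, lam i + ∑ i, mu i + l1 (dualWt mu - lam)
      = 2 * ∑ i, (v i : ℚ)
        + ∑ i : Fin (m + 2), (if Odd (m + 2) ∧ (i : ℕ) + 1 = m + 2 then 0 else (t : ℚ)) := by
    unfold l1
    simp only [Pi.sub_apply]
    rw [← Finset.sum_add_distrib, ← Finset.sum_add_distrib, Finset.mul_sum,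
      ← Finset.sum_add_distrib]
    exact Finset.sum_congr rfl fun i _ => hv i
  have hcount : ∃ r : ℤ, ∑ i : Fin (m + 2),
      (if Odd (m + 2) ∧ (i : ℕ) + 1 = m + 2 then 0 else (t : ℚ)) = 2 * r := by
    rw [Fin.sum_univ_castSucc]
    have h1 : ∀ i : Fin (m + 1), ¬ (Odd (m + 2) ∧ ((i.castSucc : Fin (m + 2)) : ℕ) + 1 = m + 2) := by
      rintro i ⟨_, h2⟩
      have := i.2
      simp at h2
      omega
    simp only [h1, if_false, Finset.sum_const, Finset.card_univ, Fintype.card_fin, Fin.val_last,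
      and_true, nsmul_eq_mul]
    by_cases hodd : Odd (m + 2)
    · rw [if_pos hodd]
      obtain ⟨q, hq⟩ := hodd
      refine ⟨q * t, ?_⟩
      have : m + 1 = 2 * q := by omega
      rw [this]; push_cast; ring
    · rw [if_neg hodd]
      obtain ⟨q, hq⟩ := Nat.not_odd_iff_even.mp hodd
      refine ⟨q * t, ?_⟩
      have : ((m + 1 : ℕ) : ℚ) + 1 = 2 * q := by
        have : m + 1 + 1 = 2 * q := by omega
        exact_mod_cast this
      have h3 : ((m + 1 : ℕ) : ℚ) * t + t = (((m + 1 : ℕ) : ℚ) + 1) * t := by ring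
      rw [h3, this]; push_cast; ring
  obtain ⟨r, hr⟩ := hcount
  refine ⟨M - ∑ i, v i - r, ?_⟩
  rw [hr] at hsum
  push_cast
  linarith

/-- Saturation for triples whose third member is a multiple of `ω_1`, rank `m + 2`. -/
theorem saturation_pieri_aux (m : ℕ) (lam mu : Wt (m + 2)) (k N : ℕ) (hN : 1 ≤ N)
    (hlam : IsWeight lam) (dlam : IsDominant lam) (dmu : IsDominant mu)
    (hQ : InRootLattice (lam + mu + k • omega1 (m + 2)))
    (h : invDim (N • lam) (N • mu) (N • (k • omega1 (m + 2))) ≠ 0) :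
    invDim lam mu (k • omega1 (m + 2)) ≠ 0 := by
  -- the common class of `lam` and `mu`
  obtain ⟨c, t, ht, hl, hm⟩ : ∃ (c : ℚ) (t : ℤ), 2 * c = t ∧ Cls c lam ∧ Cls c mu := by
    have hint : ∀ i, ∃ z : ℤ, lam i + mu i = z := by
      intro i
      obtain ⟨z, hz⟩ := hQ.1 i
      obtain ⟨y, hy⟩ := isInt_smul_omega1 (n := m + 2) k i
      refine ⟨z - y, ?_⟩
      simp only [Pi.add_apply] at hz
      push_cast
      rw [← hz, ← hy]; ring
    rcases hlam with h0 | h0
    · refine ⟨0, 0, by simp, fun i => ?_, fun i => ?_⟩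
      · obtain ⟨z, hz⟩ := h0 i
        exact ⟨z, by rw [hz]; ring⟩
      · obtain ⟨z, hz⟩ := h0 i
        obtain ⟨y, hy⟩ := hint i
        exact ⟨y - z, by push_cast; rw [← hy, ← hz]; ring⟩
    · refine ⟨1 / 2, 1, by norm_num, h0, fun i => ?_⟩
      obtain ⟨z, hz⟩ := h0 i
      obtain ⟨y, hy⟩ := hint i
      exact ⟨y - z - 1, by push_cast; rw [← hy, hz]; ring⟩
  have hc : ∃ t : ℤ, 2 * c = t := ⟨t, ht⟩
  have hcN : ∃ t' : ℤ, 2 * ((N : ℚ) * c) = t' := ⟨N * t, by push_cast; rw [← ht]; ring⟩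
  have hκ : Cls c (dualWt mu) := hm.dualWt hc
  have dκ : IsDominant (dualWt mu) := isDominant_dualWt dmu
  unfold invDim at h ⊢
  rw [dualWt_smul, smul_smul,
    tensorMult_ne_zero_iff m (N * k) _ _ _ hcN (hl.nsmul N) (hκ.nsmul N) (dlam.nsmul N)
      (dκ.nsmul N)] at h
  rw [tensorMult_ne_zero_iff m k _ _ c hc hl hκ dlam dκ]
  obtain ⟨J, hJ1, hJ2⟩ := h
  have hNpos : (0 : ℚ) < N := by exact_mod_cast hN
  simp only [Pi.smul_apply, nsmul_eq_mul, scale_L] at hJ1
  rw [← smul_sub, l1_nsmul] at hJ2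
  choose w hw using fun i : Fin (m + 1) => Cls.exists_L hc hl hκ i.castSucc i.succ
  -- the gaps are non-negative
  have hw0 : ∀ i, 0 ≤ w i := by
    intro i
    have h1 := hJ1 i
    rw [hw i] at h1
    have h2 : (0 : ℚ) ≤ (N : ℚ) * w i := le_trans (Nat.cast_nonneg _) h1
    have h3 : (0 : ℚ) ≤ w i := by
      by_contra hcon
      rw [not_le] at hcon
      nlinarith
    exact_mod_cast h3
  obtain ⟨s, hs⟩ := parity_of_rootLattice m k lam mu c t ht hl hm hQ
  have hJsum : ∑ i, (J i : ℚ) ≤ N * ∑ i, (w i : ℚ) := by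
    rw [Finset.mul_sum]
    refine Finset.sum_le_sum fun i _ => ?_
    have := hJ1 i
    rwa [hw i] at this
  have hJnonneg : (0 : ℚ) ≤ ∑ i, (J i : ℚ) := Finset.sum_nonneg fun i _ => Nat.cast_nonneg _
  push_cast at hJ2
  -- `N * (k - D) = 2 * ∑ J`
  have hkey : (N : ℚ) * (2 * s) = 2 * ∑ i, (J i : ℚ) := by
    rw [← hs]; linarith
  have hs0 : 0 ≤ s := by
    have : (0 : ℚ) ≤ s := by
      by_contra hcon
      rw [not_le] at hcon
      nlinarith
    exact_mod_cast this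
  have hsle : s ≤ ∑ i, w i := by
    have : (s : ℚ) ≤ ∑ i, (w i : ℚ) := by
      by_contra hcon
      rw [not_le] at hcon
      nlinarith
    exact_mod_cast this
  obtain ⟨j, hj1, hj2⟩ := exists_le_sum_eq Finset.univ (fun i => (w i).toNat) s.toNat (by
    have h1 : ((∑ i, (w i).toNat : ℕ) : ℤ) = ∑ i, w i := by
      push_cast
      exact Finset.sum_congr rfl fun i _ => Int.toNat_of_nonneg (hw0 i)
    omega)
  refine ⟨j, fun i => ?_, ?_⟩
  · rw [hw i]
    have h1 := hj1 i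
    have h2 : ((j i : ℕ) : ℤ) ≤ w i := by
      have := Int.toNat_of_nonneg (hw0 i)
      omega
    exact_mod_cast h2
  · have h1 : (∑ i, (j i : ℚ)) = s := by
      have h2 : ((∑ i, j i : ℕ) : ℤ) = s := by
        rw [hj2]; exact Int.toNat_of_nonneg hs0
      have h3 : (((∑ i, j i : ℕ) : ℤ) : ℚ) = (s : ℚ) := by rw [h2]
      push_cast at h3
      exact h3
    rw [h1]
    linarith

end Vale.Agent.Lib.P182
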