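import Vale.Agent.Lib.P182.Cls

/-!
# Identification of the Weyl character of `V(k ω_1)`
-/

namespace Vale.Agent.Lib.P182

open Finset Polynomial

theorem smul_omega1_zero (m k : ℕ) : (k • omega1 (m + 2)) 0 = k := by
  simp [omega1]

theorem smul_omega1_succ (m k : ℕ) (i : Fin (m + 1)) : (k • omega1 (m + 2)) i.succ = 0 := by
  simp [omega1]

theorem l1_smul_omega1 (m k : ℕ) : l1 (k • omega1 (m + 2)) = k := by
  unfold l1
  rw [Fin.sum_univ_succ, smul_omega1_zero]
  simp only [smul_omega1_succ]
  simp

theorem coeff_alt_rho_mul_Hk_of_sdom (m k : ℕ) (x : Wt (m + 2)) (hx : SDom x) :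
    (alt (rho (m + 2)) * Hk (m + 1) k).coeff x
      = (alt (k • omega1 (m + 2) + rho (m + 2))).coeff x := by
  classical
  rw [coeff_alt_of_sdom hx (sdom_add_rho (isDominant_smul_omega1 k))]
  by_cases hxi : IsInt x
  · have hc : ∃ t : ℤ, 2 * (0 : ℚ) = t := ⟨0, by simp⟩
    have hx0 : Cls 0 x := cls_zero_iff.mpr hxi
    have hr0 : Cls 0 (rho (m + 2)) := cls_zero_iff.mpr isInt_rho
    have hd : l1 (x - rho (m + 2)) = ((⌊l1 (x - rho (m + 2))⌋₊ : ℕ) : ℚ) :=
      ((hx0.isInt_sub hr0).l1_eq).symm
    choose z hz using fun i : Fin (m + 1) => Cls.exists_L hc hx0 hr0 i.castSucc i.succ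
    rw [coeff_alt_mul_Hk_eval (m + 1) k x (rho (m + 2)) hx sdom_rho
      (fun σ ε => Cls.isInt_sub_act hc hx0 hr0 σ ε) _ hd z hz]
    by_cases hxk : x = k • omega1 (m + 2) + rho (m + 2)
    · rw [if_pos hxk]
      have hz1 : ∀ i, z i = 1 := by
        intro i
        have h := hz i
        have h1 : x i.succ = rho (m + 2) i.succ := by
          rw [hxk, Pi.add_apply, smul_omega1_succ, zero_add]
        have h2 : rho (m + 2) i.castSucc ≤ x i.castSucc := by
          rw [hxk, Pi.add_apply]
          have : 0 ≤ (k • omega1 (m + 2)) i.castSucc := by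
            simp only [Pi.smul_apply, omega1]
            split_ifs <;> simp
          linarith
        rw [h1, max_self, min_eq_right h2, abs_of_nonneg (rho_nonneg _), rho_castSucc] at h
        have : ((z i : ℤ) : ℚ) = 1 := by linarith
        exact_mod_cast this
      have hdk : ⌊l1 (x - rho (m + 2))⌋₊ = k := by
        rw [hxk, add_sub_cancel_right, l1_smul_omega1, Nat.floor_natCast]
      simp [hz1, hdk, geom_one]
    · rw [if_neg hxk]
      by_contra hne
      obtain ⟨j, hj1, hj2⟩ := (coeff_X_pow_mul_prod_geom_ne_zero _ _ _).mp hne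
      apply hxk
      have hzpos : ∀ i, (1 : ℚ) ≤ z i := by
        intro i
        have := hj1 i
        have h1 : 0 < z i := by
          by_contra hcon
          rw [Int.toNat_eq_zero.mpr (not_lt.mp hcon)] at this
          omega
        exact_mod_cast h1
      have e1 : ∀ i : Fin (m + 1), |rho (m + 2) i.succ| = rho (m + 2) i.succ :=
        fun i => abs_of_nonneg (rho_nonneg _)
      have e2 : ∀ i : Fin (m + 1), rho (m + 2) i.castSucc = rho (m + 2) i.succ + 1 :=
        fun i => rho_castSucc i
      have hA : ∀ i : Fin (m + 1), rho (m + 2) i.castSucc ≤ x i.castSucc := by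
        intro i
        have h := hz i
        have h1 := hzpos i
        have h2 := le_max_right |x i.succ| |rho (m + 2) i.succ|
        have h3 := min_le_left (x i.castSucc) (rho (m + 2) i.castSucc)
        have h4 := e1 i
        have h5 := e2 i
        linarith
      have hB : ∀ i : Fin (m + 1), |x i.succ| ≤ rho (m + 2) i.succ := by
        intro i
        have h := hz i
        have h1 := hzpos i
        have h2 := le_max_left |x i.succ| |rho (m + 2) i.succ|
        have h3 := min_le_right (x i.castSucc) (rho (m + 2) i.castSucc)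
        have h5 := e2 i
        linarith
      have hC : ∀ i : Fin (m + 1), z i ≤ 1 := by
        intro i
        have h := hz i
        have h2 := le_max_right |x i.succ| |rho (m + 2) i.succ|
        have h3 := min_le_right (x i.castSucc) (rho (m + 2) i.castSucc)
        have h4 := e1 i
        have h5 := e2 i
        have : ((z i : ℤ) : ℚ) ≤ 1 := by linarith
        exact_mod_cast this
      have hj0 : ∀ i, j i = 0 := by
        intro i
        have h1 := hj1 i
        have h2 := hC i
        have : (z i).toNat ≤ 1 := by omega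
        omega
      have hxs : ∀ i : Fin (m + 1), x i.succ = rho (m + 2) i.succ := by
        intro i
        by_cases hl : i.succ = Fin.last (m + 1)
        · have h1 := hB i
          rw [hl, rho_last] at h1
          rw [hl, rho_last]
          exact abs_eq_zero.mp (le_antisymm h1 (abs_nonneg _))
        · have h1 := hA (i.succ.castPred hl)
          rw [Fin.castSucc_castPred] at h1
          exact le_antisymm (le_trans (le_abs_self _) (hB i)) h1
      have hdk : ⌊l1 (x - rho (m + 2))⌋₊ = k := by
        simpa [hj0] using hj2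
      have hx0' : x 0 - rho (m + 2) 0 = k := by
        have h1 : l1 (x - rho (m + 2)) = |x 0 - rho (m + 2) 0| := by
          unfold l1
          rw [Fin.sum_univ_succ]
          simp [hxs]
        have h2 := hA 0
        rw [Fin.castSucc_zero] at h2
        rw [abs_of_nonneg (by linarith)] at h1
        rw [← h1, hd, hdk]
      funext i
      refine Fin.cases ?_ (fun i => ?_) i
      · rw [Pi.add_apply, smul_omega1_zero]; linarith
      · rw [Pi.add_apply, smul_omega1_succ, hxs, zero_add]
  · rw [coeff_alt_mul_Hk_of_not_int, if_neg]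
    · rintro rfl
      exact hxi ((isInt_smul_omega1 k).add isInt_rho)
    · intro σ ε h
      apply hxi
      have := h.add ((isInt_act σ ε _).mpr (isInt_rho (n := m + 2)))
      simpa using this

theorem Hk_mul_alt_rho (m k : ℕ) :
    Hk (m + 1) k * alt (rho (m + 2)) = alt (k • omega1 (m + 2) + rho (m + 2)) := by
  rw [mul_comm]
  ext x
  exact IsAlternating.ext
    (isAlternating_coeff_alt_mul _ _ (fun τ δ _ γ => by
      rw [Hk_coeff, Hk_coeff, hcoef_act]))
    (isAlternating_coeff_alt _) (coeff_alt_rho_mul_Hk_of_sdom m k) x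

theorem alt_rho_ne_zero (n : ℕ) : alt (rho n) ≠ 0 := by
  intro h
  have := coeff_alt_of_sdom (sdom_rho (n := n)) (sdom_rho (n := n))
  rw [h] at this
  simp at this

theorem weylChar_smul_omega1 (m k : ℕ) : weylChar (k • omega1 (m + 2)) = Hk (m + 1) k := by
  have hex : ∃ χ : CharRing (m + 2), χ * alt (rho (m + 2))
      = alt (k • omega1 (m + 2) + rho (m + 2)) := ⟨_, Hk_mul_alt_rho m k⟩
  unfold weylChar
  rw [dif_pos hex]
  have h1 := hex.choose_spec
  exact mul_right_cancel₀ (alt_rho_ne_zero _) (h1.trans (Hk_mul_alt_rho m k).symm)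

end Vale.Agent.Lib.P182
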